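import Vale.Agent.P037.Main

namespace Vale.Agent.Results.P037.Disproof

open Vale.Agent.P037

theorem result :
    (¬ ∀ (k : ℕ), 1 ≤ k → ∀ H : Matrix (Fin k) (Fin k) (Fin 2), PolyRemoval H) ∧
    ¬ PolyRemoval pattern ∧
    ∀ h m n : ℕ, 1 ≤ h → 1 ≤ m → n = 10 * (h + 1) * 2 ^ h * m →
      ∃ A : Matrix (Fin n) (Fin n) (Fin 2),
        1 / (1600 * ((h : ℝ) + 1) ^ 2) ≤ distFree pattern A ∧
        (copies pattern A : ℝ) ≤ (n : ℝ) ^ 8 / 2 ^ h :=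
  ⟨fun H => not_polyRemoval (H 4 (by norm_num) pattern), not_polyRemoval, family⟩

end Vale.Agent.Results.P037.Disproof
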